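import Vale.Agent.Lib.P328.Z.Avg

/-!
# Module M5 (Block): the block recursion

If the row operator satisfies `∑_{i ∈ W} ⟨f, avg (W.erase i) f⟩ ≤ b ⟨f, f⟩ + (|W| - b) ⟨f, avg W f⟩`
for every set `W` of rows, then the sum over the `b`-subsets `B` of `W` of the Dirichlet forms
`⟨f, f - avg B f⟩` dominates `⟨f, f - avg W f⟩`.
-/

namespace Vale.Agent.Lib.P328.Z

open Finset
open Classical

variable {R C : Type} [Fintype R] [DecidableEq R] [Fintype C] [DecidableEq C]
variable {r : R → ℕ} {c : C → ℕ}

omit [Fintype R] in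
/-- double counting: every `b`-subset `B` of `W` lies in `W.erase i` for exactly `|W| - b` rows
`i ∈ W` -/
theorem sum_erase_powersetCard (W : Finset R) (b : ℕ) (D : Finset R → ℝ) :
    ∑ i ∈ W, ∑ B ∈ (W.erase i).powersetCard b, D B
      = ((W.card : ℝ) - b) * ∑ B ∈ W.powersetCard b, D B := by
  have h1 : ∀ i, (W.erase i).powersetCard b = (W.powersetCard b).filter (fun B => i ∉ B) := by
    intro i
    ext B
    simp only [mem_powersetCard, mem_filter, subset_erase]
    tauto
  have h2 : ∑ i ∈ W, ∑ B ∈ (W.erase i).powersetCard b, D B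
      = ∑ B ∈ W.powersetCard b, ∑ i ∈ W, if i ∉ B then D B else 0 := by
    rw [sum_comm]
    refine sum_congr rfl fun i _ => ?_
    rw [h1 i, sum_filter]
  rw [h2, mul_sum]
  refine sum_congr rfl fun B hB => ?_
  rw [mem_powersetCard] at hB
  have h3 : ∑ i ∈ W, (if i ∉ B then D B else 0) = ((W \ B).card : ℝ) * D B := by
    have h4 : W.filter (fun i => i ∉ B) = W \ B := by
      ext i
      simp [mem_sdiff]
    rw [← sum_filter, sum_const, nsmul_eq_mul, h4]
  rw [h3, card_sdiff_of_subset hB.1, Nat.cast_sub (card_le_card hB.1), hB.2]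

/-- **Block recursion** (module M5), abstract form. -/
theorem block_poincare_of_rowsum (b : ℕ)
    (hrow : ∀ (W : Finset R) (f : Tab r c → ℝ),
      ∑ i ∈ W, ip f (avg (W.erase i) f)
        ≤ (b : ℝ) * ip f f + ((W.card : ℝ) - b) * ip f (avg W f))
    (W : Finset R) (hW : b ≤ W.card) (f : Tab r c → ℝ) :
    ip f f - ip f (avg W f) ≤ ∑ B ∈ W.powersetCard b, (ip f f - ip f (avg B f)) := by
  obtain ⟨d, hd⟩ : ∃ d, W.card = b + d := ⟨W.card - b, by omega⟩
  clear hW
  induction d generalizing W with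
  | zero =>
    have hWb : W.card = b := by omega
    have : W.powersetCard b = {W} := by
      rw [← hWb]; exact powersetCard_self W
    rw [this, sum_singleton]
  | succ d ih =>
    have hcard : ∀ i ∈ W, (W.erase i).card = b + d := by
      intro i hi
      rw [card_erase_of_mem hi, hd]; omega
    have h1 : ∑ i ∈ W, (ip f f - ip f (avg (W.erase i) f))
        ≤ ∑ i ∈ W, ∑ B ∈ (W.erase i).powersetCard b, (ip f f - ip f (avg B f)) :=
      sum_le_sum fun i hi => ih (W.erase i) (hcard i hi)
    rw [sum_erase_powersetCard] at h1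
    have h2 : ∑ i ∈ W, (ip f f - ip f (avg (W.erase i) f))
        = (W.card : ℝ) * ip f f - ∑ i ∈ W, ip f (avg (W.erase i) f) := by
      rw [sum_sub_distrib, sum_const, nsmul_eq_mul]
    have h3 := hrow W f
    have hpos : (0 : ℝ) < (W.card : ℝ) - b := by
      rw [hd]; push_cast; linarith [(Nat.cast_nonneg d : (0 : ℝ) ≤ d)]
    have h4 : ((W.card : ℝ) - b) * (ip f f - ip f (avg W f))
        ≤ ((W.card : ℝ) - b) * ∑ B ∈ W.powersetCard b, (ip f f - ip f (avg B f)) := by
      rw [h2] at h1
      nlinarith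
    exact le_of_mul_le_mul_left h4 hpos

end Vale.Agent.Lib.P328.Z
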