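import Mathlib

/-!
# Module M6 (Mix): from a spectral gap to total variation

A symmetric stochastic matrix `Q` with `Q² ≤ Q` (in the quadratic-form sense) and a Poincare
inequality with constant `γ` is within total variation `1/4` of the uniform law after `t` steps
as soon as `γ t ≥ log (4 |Ω|)`.
-/

namespace Vale.Agent.Lib.P328.Z

open Finset

section
variable {Ω : Type} [Fintype Ω] [DecidableEq Ω]

theorem row_sum_pow (Q : Matrix Ω Ω ℝ) (hrow : ∀ x, ∑ y, Q x y = 1) (s : ℕ) (x : Ω) :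
    ∑ y, (Q ^ s) x y = 1 := by
  induction s generalizing x with
  | zero => simp [Matrix.one_apply]
  | succ s ih =>
    simp only [pow_succ, Matrix.mul_apply]
    rw [sum_comm]
    have : ∀ z, ∑ y, (Q ^ s) x z * Q z y = (Q ^ s) x z := by
      intro z
      rw [← mul_sum, hrow z, mul_one]
    rw [sum_congr rfl fun z _ => this z]
    exact ih x

/-- **Mixing from a gap** (module M6). -/
theorem tv_of_gap (Q : Matrix Ω Ω ℝ)
    (hsymm : ∀ x y, Q x y = Q y x) (hrow : ∀ x, ∑ y, Q x y = 1)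
    (hpsd : ∀ f : Ω → ℝ, ∑ x, (Q.mulVec f x) ^ 2 ≤ ∑ x, f x * Q.mulVec f x)
    (γ : ℝ) (hγ0 : 0 < γ) (hγ1 : γ ≤ 1)
    (hgap : ∀ f : Ω → ℝ, ∑ x, f x = 0 →
      γ * ∑ x, f x ^ 2 ≤ ∑ x, f x * (f x - Q.mulVec f x))
    (t : ℕ) (ht : Real.log (4 * (Fintype.card Ω : ℝ)) ≤ γ * t) (x : Ω) :
    (1 / 2) * ∑ y, |(Q ^ t) x y - 1 / (Fintype.card Ω : ℝ)| ≤ 1 / 4 := by
  have hNpos : (0 : ℝ) < Fintype.card Ω := by
    have : 0 < Fintype.card Ω := Fintype.card_pos_iff.mpr ⟨x⟩
    exact_mod_cast this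
  set N : ℝ := (Fintype.card Ω : ℝ) with hN
  set F : ℕ → Ω → ℝ := fun s y => (Q ^ s) x y - 1 / N with hF
  -- mean zero
  have hmean : ∀ s, ∑ y, F s y = 0 := by
    intro s
    simp only [hF, sum_sub_distrib, row_sum_pow Q hrow s x, sum_const, card_univ, nsmul_eq_mul]
    rw [← hN]; field_simp; ring
  -- evolution
  have hstep : ∀ s, F (s + 1) = Q.mulVec (F s) := by
    intro s
    funext y
    simp only [hF, Matrix.mulVec, dotProduct, pow_succ, Matrix.mul_apply]
    have h1 : ∑ z, Q y z * ((Q ^ s) x z - 1 / N) = ∑ z, (Q ^ s) x z * Q z y - 1 / N := by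
      have : ∀ z, Q y z * ((Q ^ s) x z - 1 / N) = (Q ^ s) x z * Q z y - Q y z * (1 / N) := by
        intro z; rw [hsymm y z]; ring
      rw [sum_congr rfl fun z _ => this z, sum_sub_distrib, ← sum_mul, hrow y, one_mul]
    rw [h1]
  -- contraction
  have hcontr : ∀ f : Ω → ℝ, ∑ y, f y = 0 →
      ∑ y, (Q.mulVec f y) ^ 2 ≤ (1 - γ) * ∑ y, f y ^ 2 := by
    intro f hf
    have h1 := hpsd f
    have h2 := hgap f hf
    have h3 : ∑ y, f y * (f y - Q.mulVec f y) = ∑ y, f y ^ 2 - ∑ y, f y * Q.mulVec f y := by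
      rw [← sum_sub_distrib]
      refine sum_congr rfl fun y _ => ?_
      ring
    rw [h3] at h2
    linarith
  have hE : ∀ s, ∑ y, F s y ^ 2 ≤ (1 - γ) ^ s := by
    intro s
    induction s with
    | zero =>
      simp only [pow_zero]
      have h0 : ∑ y, F 0 y ^ 2 = 1 - 1 / N := by
        have : ∀ y, F 0 y ^ 2 = (if x = y then 1 else 0) - 2 / N * (if x = y then 1 else 0)
            + 1 / N ^ 2 := by
          intro y
          simp only [hF, pow_zero, Matrix.one_apply]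
          split_ifs <;> ring
        rw [sum_congr rfl fun y _ => this y]
        simp only [sum_add_distrib, sum_sub_distrib, ← mul_sum, sum_ite_eq, mem_univ, if_true,
          sum_const, card_univ, nsmul_eq_mul]
        rw [← hN]; field_simp; ring
      rw [h0]
      have : 0 ≤ 1 / N := by positivity
      linarith
    | succ s ih =>
      rw [hstep s, pow_succ]
      calc ∑ y, (Q.mulVec (F s) y) ^ 2 ≤ (1 - γ) * ∑ y, F s y ^ 2 := hcontr _ (hmean s)
        _ ≤ (1 - γ) * (1 - γ) ^ s := mul_le_mul_of_nonneg_left ih (by linarith)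
        _ = (1 - γ) ^ s * (1 - γ) := by ring
  -- Cauchy-Schwarz
  have hCS : (∑ y, |F t y|) ^ 2 ≤ N * ∑ y, F t y ^ 2 := by
    have := sum_mul_sq_le_sq_mul_sq (univ : Finset Ω) (fun _ => (1 : ℝ)) (fun y => |F t y|)
    simp only [one_mul, one_pow, sum_const, card_univ, nsmul_eq_mul, mul_one, sq_abs] at this
    rw [← hN] at this
    exact this
  have hexp : (1 - γ) ^ t ≤ Real.exp (-(γ * t)) := by
    have h1 : 1 - γ ≤ Real.exp (-γ) := by
      have := Real.add_one_le_exp (-γ)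
      linarith
    calc (1 - γ) ^ t ≤ Real.exp (-γ) ^ t := pow_le_pow_left₀ (by linarith) h1 t
      _ = Real.exp (-(γ * t)) := by
        rw [← Real.exp_nat_mul]; congr 1; ring
  have hfin : N * (1 - γ) ^ t ≤ 1 / 4 := by
    have h1 : Real.exp (-(γ * t)) ≤ Real.exp (-Real.log (4 * N)) :=
      Real.exp_le_exp.mpr (by linarith)
    have h2 : Real.exp (-Real.log (4 * N)) = 1 / (4 * N) := by
      rw [Real.exp_neg, Real.exp_log (by positivity)]; ring
    have h3 : (1 - γ) ^ t ≤ 1 / (4 * N) := by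
      calc (1 - γ) ^ t ≤ Real.exp (-(γ * t)) := hexp
        _ ≤ 1 / (4 * N) := by rw [← h2]; exact h1
    calc N * (1 - γ) ^ t ≤ N * (1 / (4 * N)) := mul_le_mul_of_nonneg_left h3 hNpos.le
      _ = 1 / 4 := by field_simp
  have hsq : (∑ y, |F t y|) ^ 2 ≤ 1 / 4 := by
    calc (∑ y, |F t y|) ^ 2 ≤ N * ∑ y, F t y ^ 2 := hCS
      _ ≤ N * (1 - γ) ^ t := mul_le_mul_of_nonneg_left (hE t) hNpos.le
      _ ≤ 1 / 4 := hfin
  have hnn : 0 ≤ ∑ y, |F t y| := sum_nonneg fun y _ => abs_nonneg _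
  have hhalf : ∑ y, |F t y| ≤ 1 / 2 := by
    nlinarith
  have : ∑ y, |(Q ^ t) x y - 1 / N| = ∑ y, |F t y| := rfl
  rw [this]
  linarith

end

end Vale.Agent.Lib.P328.Z
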