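import Vale.Agent.Lib.P328.Z.Avg
import Vale.Agent.Lib.P328.Z.Mix

/-!
# Module M7 (Chain): the block chain and its mixing time

The block chain chooses a uniformly random `b`-set `B` of rows and replaces the current table by
a uniformly random table with the same rows outside `B`.  Given the block Poincare inequality
(module M5) it is within total variation `1/4` of uniform after
`C(m,b) (m n log (N + 1) + 2)` steps.
-/

namespace Vale.Agent.Lib.P328.Z

open Finset
open Classical

variable {R C : Type} [Fintype R] [DecidableEq R] [Fintype C] [DecidableEq C]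
variable {r : R → ℕ} {c : C → ℕ}

/-- Transition matrix of the block chain: choose a uniformly random `b`-set `B` of rows and
replace the table by a uniformly random table having the same rows outside `B`. -/
noncomputable def blockMatrix (b : ℕ) (r : R → ℕ) (c : C → ℕ) : Matrix (Tab r c) (Tab r c) ℝ :=
  fun x y => (∑ B ∈ (univ : Finset R).powersetCard b,
      if y ∈ cls B x then (1 : ℝ) / ((cls B x).card : ℝ) else 0)
    / ((Fintype.card R).choose b : ℝ)

theorem card_tab_le (r : R → ℕ) (c : C → ℕ) :
    Fintype.card (Tab r c) ≤ (∑ i, r i + 1) ^ (Fintype.card R * Fintype.card C) := by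
  let F : Tab r c → (R → C → Fin (∑ i, r i + 1)) := fun x i j =>
    ⟨x.1 i j, Nat.lt_succ_of_le ((entry_le_row x i j).trans
      (Finset.single_le_sum (f := r) (fun _ _ => Nat.zero_le _) (mem_univ i)))⟩
  have hF : Function.Injective F := by
    intro x y h
    apply Subtype.ext
    funext i j
    have := congrArg (fun f => (f i j : ℕ)) h
    simpa [F] using this
  have h1 := Fintype.card_le_of_injective F hF
  have h2 : Fintype.card (R → C → Fin (∑ i, r i + 1))
      = (∑ i, r i + 1) ^ (Fintype.card R * Fintype.card C) := by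
    simp only [Fintype.card_fun, Fintype.card_fin]
    rw [← pow_mul, mul_comm]
  rw [h2] at h1
  exact h1

theorem mem_cls_symm (B : Finset R) (x y : Tab r c) : y ∈ cls B x ↔ x ∈ cls B y := by
  rw [mem_cls, mem_cls]
  exact ⟨fun h => h.symm, fun h => h.symm⟩

theorem blockMatrix_symm (b : ℕ) (x y : Tab r c) : blockMatrix b r c x y = blockMatrix b r c y x := by
  unfold blockMatrix
  congr 1
  refine sum_congr rfl fun B _ => ?_
  by_cases h : y ∈ cls B x
  · have h' : x ∈ cls B y := (mem_cls_symm B x y).mp h
    rw [if_pos h, if_pos h', cls_eq_of_mem B x y h]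
  · have h' : x ∉ cls B y := fun hx => h ((mem_cls_symm B x y).mpr hx)
    rw [if_neg h, if_neg h']

theorem blockMatrix_mulVec (b : ℕ) (f : Tab r c → ℝ) (x : Tab r c) :
    (blockMatrix b r c).mulVec f x
      = (∑ B ∈ (univ : Finset R).powersetCard b, avg B f x) / ((Fintype.card R).choose b : ℝ) := by
  simp only [Matrix.mulVec, dotProduct, blockMatrix]
  have h1 : ∀ y : Tab r c,
      (∑ B ∈ (univ : Finset R).powersetCard b,
          if y ∈ cls B x then (1 : ℝ) / ((cls B x).card : ℝ) else 0)
        / ((Fintype.card R).choose b : ℝ) * f y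
      = (∑ B ∈ (univ : Finset R).powersetCard b,
          if y ∈ cls B x then f y / ((cls B x).card : ℝ) else 0)
        / ((Fintype.card R).choose b : ℝ) := by
    intro y
    rw [div_mul_eq_mul_div, sum_mul]
    congr 1
    refine sum_congr rfl fun B _ => ?_
    split_ifs <;> ring
  rw [sum_congr rfl fun y _ => h1 y, ← sum_div, sum_comm]
  congr 1
  refine sum_congr rfl fun B _ => ?_
  rw [avg_apply, sum_div, ← sum_filter]
  refine sum_congr ?_ fun _ _ => rfl
  ext y
  simp

theorem blockMatrix_row_sum (b : ℕ) (hR : b ≤ Fintype.card R) (x : Tab r c) :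
    ∑ y, blockMatrix b r c x y = 1 := by
  have h := blockMatrix_mulVec (r := r) (c := c) b (fun _ => (1 : ℝ)) x
  simp only [Matrix.mulVec, dotProduct, mul_one] at h
  rw [h]
  have h2 : ∀ B : Finset R, avg B (fun _ : Tab r c => (1 : ℝ)) x = 1 := fun B =>
    congrFun (avg_const B 1) x
  rw [sum_congr rfl fun B _ => h2 B, sum_const, card_powersetCard, nsmul_eq_mul, mul_one,
    card_univ]
  have hpos : (0 : ℝ) < ((Fintype.card R).choose b : ℝ) := by
    exact_mod_cast Nat.choose_pos hR
  exact div_self hpos.ne'

/-- the square of an average is at most the average of the squares -/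
theorem sq_sum_div_le {ι : Type} (s : Finset ι) (a : ι → ℝ) (M : ℝ) (hM : 0 < M)
    (hs : (s.card : ℝ) = M) : ((∑ B ∈ s, a B) / M) ^ 2 ≤ (∑ B ∈ s, a B ^ 2) / M := by
  have h := sq_sum_le_card_mul_sum_sq (s := s) (f := a)
  rw [hs] at h
  rw [div_pow, div_le_div_iff₀ (by positivity) hM]
  nlinarith

theorem ip_blockMatrix (b : ℕ) (f : Tab r c → ℝ) :
    ∑ x, f x * (blockMatrix b r c).mulVec f x
      = (∑ B ∈ (univ : Finset R).powersetCard b, ip f (avg B f))
        / ((Fintype.card R).choose b : ℝ) := by
  have h : ∀ x : Tab r c, f x * (blockMatrix b r c).mulVec f x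
      = (∑ B ∈ (univ : Finset R).powersetCard b, f x * avg B f x)
        / ((Fintype.card R).choose b : ℝ) := by
    intro x
    rw [blockMatrix_mulVec, mul_div_assoc', mul_sum]
  rw [sum_congr rfl fun x _ => h x, ← sum_div, sum_comm]
  rfl

theorem blockMatrix_psd (b : ℕ) (hR : b ≤ Fintype.card R) (f : Tab r c → ℝ) :
    ∑ x, ((blockMatrix b r c).mulVec f x) ^ 2 ≤ ∑ x, f x * (blockMatrix b r c).mulVec f x := by
  have hpos : (0 : ℝ) < ((Fintype.card R).choose b : ℝ) := by
    exact_mod_cast Nat.choose_pos hR
  have hcard : (((univ : Finset R).powersetCard b).card : ℝ) = ((Fintype.card R).choose b : ℝ) := by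
    rw [card_powersetCard, card_univ]
  have h1 : ∀ x, ((blockMatrix b r c).mulVec f x) ^ 2
      ≤ (∑ B ∈ (univ : Finset R).powersetCard b, avg B f x ^ 2)
        / ((Fintype.card R).choose b : ℝ) := by
    intro x
    rw [blockMatrix_mulVec]
    exact sq_sum_div_le _ _ _ hpos hcard
  rw [ip_blockMatrix]
  calc ∑ x, ((blockMatrix b r c).mulVec f x) ^ 2
      ≤ ∑ x, (∑ B ∈ (univ : Finset R).powersetCard b, avg B f x ^ 2)
        / ((Fintype.card R).choose b : ℝ) := sum_le_sum fun x _ => h1 x
    _ = (∑ B ∈ (univ : Finset R).powersetCard b, ip f (avg B f))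
        / ((Fintype.card R).choose b : ℝ) := by
      rw [← sum_div, sum_comm]
      congr 1
      refine sum_congr rfl fun B _ => ?_
      rw [ip_avg_self]
      unfold ip
      refine sum_congr rfl fun x _ => ?_
      ring

theorem avg_univ_of_mean_zero (f : Tab r c → ℝ) (hf : ∑ x, f x = 0) :
    avg (univ : Finset R) f = 0 := by
  funext x
  have h : cls (univ : Finset R) x = univ := by
    ext y
    simp [mem_cls, AgreeOff]
  rw [avg_apply, h, hf]
  simp

/-- **Mixing of the block chain** (module M7), from the block Poincare inequality. -/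
theorem block_chain_mixing_of_poincare (b : ℕ) (r : R → ℕ) (c : C → ℕ)
    (hR : b ≤ Fintype.card R)
    (hP : ∀ f : Tab r c → ℝ, ip f f - ip f (avg (univ : Finset R) f)
      ≤ ∑ B ∈ (univ : Finset R).powersetCard b, (ip f f - ip f (avg B f)))
    (x : Tab r c) (t : ℕ)
    (ht : ((Fintype.card R).choose b : ℝ) *
        ((Fintype.card R : ℝ) * (Fintype.card C : ℝ) * Real.log (((∑ i, r i : ℕ) : ℝ) + 1) + 2)
          ≤ t) :
    (1 / 2) * ∑ y, |(blockMatrix b r c ^ t) x y - 1 / (Fintype.card (Tab r c) : ℝ)| ≤ 1 / 4 := by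
  have hpos : (0 : ℝ) < ((Fintype.card R).choose b : ℝ) := by
    exact_mod_cast Nat.choose_pos hR
  have hM1 : (1 : ℝ) ≤ ((Fintype.card R).choose b : ℝ) := by
    exact_mod_cast Nat.choose_pos hR
  set M : ℝ := ((Fintype.card R).choose b : ℝ) with hM
  have hcard : (((univ : Finset R).powersetCard b).card : ℝ) = M := by
    rw [card_powersetCard, card_univ]
  refine tv_of_gap (blockMatrix b r c) (blockMatrix_symm b) (blockMatrix_row_sum b hR)
    (blockMatrix_psd b hR) (1 / M) (by positivity) ?_ ?_ t ?_ x
  · rw [div_le_one hpos]; exact hM1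
  · intro f hf
    have h1 := hP f
    rw [avg_univ_of_mean_zero f hf] at h1
    have h0 : ip f (0 : Tab r c → ℝ) = 0 := by simp [ip]
    rw [h0, sub_zero] at h1
    have h2 : ∑ x, f x * (f x - (blockMatrix b r c).mulVec f x)
        = (∑ B ∈ (univ : Finset R).powersetCard b, (ip f f - ip f (avg B f))) / M := by
      have h3 : ∑ x, f x * (f x - (blockMatrix b r c).mulVec f x)
          = ip f f - ∑ x, f x * (blockMatrix b r c).mulVec f x := by
        unfold ip
        rw [← sum_sub_distrib]
        refine sum_congr rfl fun x _ => ?_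
        ring
      rw [h3, ip_blockMatrix, sum_sub_distrib, sum_const, nsmul_eq_mul, hcard, ← hM]
      field_simp
    rw [h2]
    have h5 : ∑ x, f x ^ 2 = ip f f := by
      unfold ip
      refine sum_congr rfl fun x _ => ?_
      ring
    rw [h5, div_mul_eq_mul_div, one_mul]
    exact div_le_div_of_nonneg_right h1 hpos.le
  · -- the time bound
    have hNpos : (0 : ℝ) < (Fintype.card (Tab r c) : ℝ) := by
      have : 0 < Fintype.card (Tab r c) := Fintype.card_pos_iff.mpr ⟨x⟩
      exact_mod_cast this
    have hN : (Fintype.card (Tab r c) : ℝ)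
        ≤ (((∑ i, r i : ℕ) : ℝ) + 1) ^ (Fintype.card R * Fintype.card C) := by
      have := card_tab_le r c
      exact_mod_cast this
    have hS : (0 : ℝ) < ((∑ i, r i : ℕ) : ℝ) + 1 := by positivity
    have hlog : Real.log (4 * (Fintype.card (Tab r c) : ℝ))
        ≤ (Fintype.card R : ℝ) * (Fintype.card C : ℝ) * Real.log (((∑ i, r i : ℕ) : ℝ) + 1) + 2 := by
      rw [Real.log_mul (by norm_num) hNpos.ne']
      have h4 : Real.log 4 ≤ 2 := by
        have h2 : Real.log 4 = 2 * Real.log 2 := by
          rw [show (4 : ℝ) = 2 ^ 2 by norm_num, Real.log_pow]; norm_num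
        rw [h2]
        have := Real.log_two_lt_d9
        linarith
      have h6 : Real.log (Fintype.card (Tab r c) : ℝ)
          ≤ Real.log ((((∑ i, r i : ℕ) : ℝ) + 1) ^ (Fintype.card R * Fintype.card C)) :=
        Real.log_le_log hNpos hN
      rw [Real.log_pow, Nat.cast_mul] at h6
      linarith
    rw [div_mul_eq_mul_div, one_mul, le_div_iff₀ hpos]
    calc Real.log (4 * (Fintype.card (Tab r c) : ℝ)) * M
        ≤ ((Fintype.card R : ℝ) * (Fintype.card C : ℝ)
            * Real.log (((∑ i, r i : ℕ) : ℝ) + 1) + 2) * M :=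
          mul_le_mul_of_nonneg_right hlog hpos.le
      _ = M * ((Fintype.card R : ℝ) * (Fintype.card C : ℝ)
            * Real.log (((∑ i, r i : ℕ) : ℝ) + 1) + 2) := by ring
      _ ≤ t := ht

end Vale.Agent.Lib.P328.Z
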