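import Mathlib

/-!
# Contingency tables with nonnegative integer entries: definitions (problem P328)

Rows `R`, columns `C`.  A table is a function `R → C → ℕ` with prescribed row sums `r` and column
sums `c`.  For a set `W` of rows, `cls W x` is the set of tables that agree with `x` outside `W`,
and `avg W` is the conditional expectation given the rows outside `W` (for the uniform law).
-/

namespace Vale.Agent.Lib.P328.Z

open Finset
open Classical

variable {R C : Type} [Fintype R] [DecidableEq R] [Fintype C] [DecidableEq C]

/-- `x` has row sums `r` and column sums `c`. -/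
def IsTable (r : R → ℕ) (c : C → ℕ) (x : R → C → ℕ) : Prop :=
  (∀ i, ∑ j, x i j = r i) ∧ ∀ j, ∑ i, x i j = c j

/-- The state space: all tables with margins `r`, `c`. -/
abbrev Tab (r : R → ℕ) (c : C → ℕ) : Type := {x : R → C → ℕ // IsTable r c x}

theorem entry_le_row {r : R → ℕ} {c : C → ℕ} (x : Tab r c) (i : R) (j : C) : x.1 i j ≤ r i := by
  rw [← x.2.1 i]
  exact Finset.single_le_sum (f := fun j => x.1 i j) (fun _ _ => Nat.zero_le _) (mem_univ j)

instance instFiniteTab (r : R → ℕ) (c : C → ℕ) : Finite (Tab r c) := by
  let F : Tab r c → (R → C → Fin (∑ i, r i + 1)) := fun x i j =>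
    ⟨x.1 i j, Nat.lt_succ_of_le ((entry_le_row x i j).trans
      (Finset.single_le_sum (f := r) (fun _ _ => Nat.zero_le _) (mem_univ i)))⟩
  have hF : Function.Injective F := by
    intro x y h
    apply Subtype.ext
    funext i j
    have := congrArg (fun f => (f i j : ℕ)) h
    simpa [F] using this
  exact Finite.of_injective F hF

noncomputable instance instFintypeTab (r : R → ℕ) (c : C → ℕ) : Fintype (Tab r c) :=
  Fintype.ofFinite _

/-- `x` and `y` agree on every row outside `W`. -/
def AgreeOff (W : Finset R) (x y : R → C → ℕ) : Prop := ∀ i, i ∉ W → x i = y i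

/-- The class of `x`: all tables that agree with `x` outside the rows of `W`. -/
noncomputable def cls {r : R → ℕ} {c : C → ℕ} (W : Finset R) (x : Tab r c) : Finset (Tab r c) :=
  univ.filter (fun y : Tab r c => AgreeOff W x.1 y.1)

/-- Averaging over classes: the conditional expectation given all rows outside `W`. -/
noncomputable def avg {r : R → ℕ} {c : C → ℕ} (W : Finset R) (f : Tab r c → ℝ) : Tab r c → ℝ :=
  fun x => (∑ y ∈ cls W x, f y) / ((cls W x).card : ℝ)

/-- The counting inner product. -/
noncomputable def ip {α : Type} [Fintype α] (f g : α → ℝ) : ℝ := ∑ x, f x * g x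

/-- The number of units by which the row `z` exceeds the row `z'`, summed over the columns.
For two rows with the same sum this is half their `ℓ¹` distance, i.e. the least number of unit
moves (one unit from one column to another) that turn `z` into `z'`. -/
def rowDist (z z' : C → ℕ) : ℕ := ∑ j, (z j - z' j)

/-- **Row-transport bound with constant `K`.**  Let `x'` agree with `x` outside `insert i W`
(`i ∉ W`) and let row `i` of `x'` be one unit move away from row `i` of `x`.  Then the uniform laws
on the two classes `cls W x`, `cls W x'` have row marginals that are close in the transport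
sense: there are weights `w l ≥ 0` (`l ∈ W`) with `∑ w ≤ K` such that for every row `l ∈ W` and
every test function `g` of a row that is `L`-Lipschitz for `rowDist` on the rows `l` of the
tables of `cls (insert i W) x`, the two means of `g (row l)` differ by at most `L * w l`. -/
def RowTransport (K : ℝ) : Prop :=
  ∀ (R C : Type) [Fintype R] [DecidableEq R] [Fintype C] [DecidableEq C]
    (r : R → ℕ) (c : C → ℕ) (W : Finset R) (i : R) (x x' : Tab r c),
    i ∉ W → AgreeOff (insert i W) x.1 x'.1 → rowDist (x.1 i) (x'.1 i) = 1 →
    ∃ w : R → ℝ, (∀ l, 0 ≤ w l) ∧ ∑ l ∈ W, w l ≤ K ∧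
      ∀ l ∈ W, ∀ (g : (C → ℕ) → ℝ) (L : ℝ),
        (∀ y ∈ cls (insert i W) x, ∀ y' ∈ cls (insert i W) x,
          |g (y.1 l) - g (y'.1 l)| ≤ L * (rowDist (y.1 l) (y'.1 l) : ℝ)) →
        |avg W (fun y => g (y.1 l)) x - avg W (fun y => g (y.1 l)) x'| ≤ L * w l

end Vale.Agent.Lib.P328.Z
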