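import Vale.Agent.Lib.P328.Z.Avg
import Vale.Agent.Lib.P335.Bip.Spectral

/-!
# Module M4 (RowSum): the quadratic form of the row operator

`rowOp W = ∑_{i ∈ W} avg (W.erase i)` is the sum over the rows `i ∈ W` of the conditional
expectations given row `i` (and the rows outside `W`).  If every eigenvector of `rowOp W` with
eigenvalue above `K + 1` is constant on the `W`-classes, then
`∑_{i ∈ W} ⟨f, avg (W.erase i) f⟩ ≤ (K + 1) ⟨f, f⟩ + (|W| - (K + 1)) ⟨f, avg W f⟩`.
-/

namespace Vale.Agent.Lib.P328.Z

open Finset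
open Classical

variable {R C : Type} [Fintype R] [DecidableEq R] [Fintype C] [DecidableEq C]
variable {r : R → ℕ} {c : C → ℕ}

/-- the operator `∑_{i ∈ W} avg (W.erase i)` -/
noncomputable def rowOp (W : Finset R) (f : Tab r c → ℝ) : Tab r c → ℝ :=
  fun x => ∑ i ∈ W, avg (W.erase i) f x

/-- `rowOp W` as a linear map -/
noncomputable def rowOpLin (W : Finset R) : (Tab r c → ℝ) →ₗ[ℝ] (Tab r c → ℝ) where
  toFun := rowOp W
  map_add' f g := by
    funext x
    simp only [rowOp, avg_add, Pi.add_apply, sum_add_distrib]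
  map_smul' a f := by
    funext x
    simp only [rowOp, avg_smul, Pi.smul_apply, smul_eq_mul, RingHom.id_apply, mul_sum]

theorem ip_rowOp (W : Finset R) (f g : Tab r c → ℝ) :
    ip f (rowOp W g) = ∑ i ∈ W, ip f (avg (W.erase i) g) := by
  unfold ip rowOp
  rw [sum_comm]
  refine sum_congr rfl fun x _ => ?_
  rw [mul_sum]

theorem rowOp_symm (W : Finset R) (f g : Tab r c → ℝ) :
    ip f (rowOp W g) = ip (rowOp W f) g := by
  have h1 : ip (rowOp W f) g = ∑ i ∈ W, ip (avg (W.erase i) f) g := by
    unfold ip rowOp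
    rw [sum_comm]
    refine sum_congr rfl fun x _ => ?_
    rw [sum_mul]
  rw [ip_rowOp, h1]
  exact sum_congr rfl fun i _ => (avg_symm (W.erase i) f g).symm

theorem rowOp_avg (W : Finset R) (f : Tab r c → ℝ) :
    rowOp W (avg W f) = fun x => (W.card : ℝ) * avg W f x := by
  funext x
  unfold rowOp
  have h : ∀ i ∈ W, avg (W.erase i) (avg W f) x = avg W f x := fun i _ =>
    congrFun (avg_tower (W.erase i) W (erase_subset i W) f).2 x
  rw [sum_congr rfl h, sum_const, nsmul_eq_mul]

/-- **Row-sum bound** (module M4), from the eigenvector statement. -/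
theorem rowsum_le_of_eigen (K : ℝ) (W : Finset R)
    (heig : ∀ (μ : ℝ) (v : Tab r c → ℝ), K + 1 < μ → (∀ x, rowOp W v x = μ * v x) →
      ∀ x y : Tab r c, AgreeOff W x.1 y.1 → v x = v y)
    (f : Tab r c → ℝ) :
    ∑ i ∈ W, ip f (avg (W.erase i) f)
      ≤ (K + 1) * ip f f + ((W.card : ℝ) - (K + 1)) * ip f (avg W f) := by
  -- the submodule of functions constant on classes
  let Kc : Submodule ℝ (Tab r c → ℝ) :=
    { carrier := {v | ∀ x y : Tab r c, AgreeOff W x.1 y.1 → v x = v y}
      add_mem' := by
        intro u v hu hv x y hxy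
        simp only [Pi.add_apply, hu x y hxy, hv x y hxy]
      zero_mem' := by
        intro x y _
        rfl
      smul_mem' := by
        intro a v hv x y hxy
        simp only [Pi.smul_apply, hv x y hxy] }
  set f0 : Tab r c → ℝ := f - avg W f with hf0
  have hperp : ∀ v ∈ Kc, ∑ x, v x * f0 x = 0 := by
    intro v hv
    have hv' : avg W v = v := (avg_eq_self_iff W v).mpr hv
    have h1 : ∑ x, v x * f0 x = ip v f - ip v (avg W f) := by
      unfold ip
      rw [← sum_sub_distrib]
      refine sum_congr rfl fun x _ => ?_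
      simp only [hf0, Pi.sub_apply]
      ring
    rw [h1, ← avg_symm W v f, hv']
    ring
  have hspec := Vale.Agent.Lib.P335.Bip.spectral_le (rowOpLin (r := r) (c := c) W)
    (fun g h => by
      have := rowOp_symm W g h
      unfold ip at this
      exact this)
    (K + 1) Kc
    (fun μ v _ hv hμ => by
      refine heig μ v hμ (fun x => ?_)
      have := congrFun hv x
      simpa [rowOpLin] using this)
    f0 hperp
  have hlin : rowOp W f0 = fun x => rowOp W f x - (W.card : ℝ) * avg W f x := by
    have h1 : rowOp W f0 = rowOp W f - rowOp W (avg W f) := by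
      funext x
      simp only [rowOp, hf0, avg_sub, Pi.sub_apply, sum_sub_distrib]
    rw [h1, rowOp_avg]
    rfl
  set a : ℝ := ip f (avg W f) with ha
  have haa : ip (avg W f) (avg W f) = a := (ip_avg_self W f).symm
  have e1 : ∑ x, f0 x * (rowOpLin (r := r) (c := c) W) f0 x
      = ip f (rowOp W f) - (W.card : ℝ) * a := by
    have h2 : ∑ x, f0 x * (rowOpLin (r := r) (c := c) W) f0 x = ip f0 (rowOp W f0) := rfl
    rw [h2, hlin]
    have h3 : ip f0 (fun x => rowOp W f x - (W.card : ℝ) * avg W f x)
        = ip f (rowOp W f) - (W.card : ℝ) * ip f (avg W f)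
          - ip (avg W f) (rowOp W f) + (W.card : ℝ) * ip (avg W f) (avg W f) := by
      unfold ip
      simp only [hf0, Pi.sub_apply]
      rw [mul_sum, mul_sum, ← sum_sub_distrib, ← sum_sub_distrib, ← sum_add_distrib]
      refine sum_congr rfl fun x _ => ?_
      ring
    have h4 : ip (avg W f) (rowOp W f) = (W.card : ℝ) * a := by
      rw [rowOp_symm, rowOp_avg]
      unfold ip
      rw [ha]
      unfold ip
      rw [mul_sum]
      refine sum_congr rfl fun x _ => ?_
      ring
    rw [h3, h4, haa]
    ring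
  have e2 : ∑ x, f0 x ^ 2 = ip f f - a := by
    have h3 : ∑ x, f0 x ^ 2 = ip f f - 2 * ip f (avg W f) + ip (avg W f) (avg W f) := by
      unfold ip
      simp only [hf0, Pi.sub_apply]
      rw [mul_sum, ← sum_sub_distrib, ← sum_add_distrib]
      refine sum_congr rfl fun x _ => ?_
      ring
    rw [h3, haa]
    ring
  rw [e1, e2, ip_rowOp] at hspec
  linarith

end Vale.Agent.Lib.P328.Z
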