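import Vale.Agent.Lib.P328.Z.Geo
import Vale.Agent.Lib.P328.Z.RowSum

/-!
# Module M3 (Eigen): eigenvectors of the row operator above `K + 1` are constant on classes

Let `rowOp W v = μ v` with `μ > K + 1`.  Then `v = μ⁻¹ ∑_{l ∈ W} G l` with `G l = avg (W.erase l) v`
a function of row `l` (on each `W`-class), and `(μ - 1) G i = ∑_{l ≠ i} avg (W.erase i) (G l)`.
Take the largest change `L` of some `G i` along a unit move of row `i` inside a class.  By the
row-transport bound the right-hand side changes by at most `K L`, so `(μ - 1) L ≤ K L` and `L = 0`: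
every `G l` is constant on the class, hence so is `v`.
-/

namespace Vale.Agent.Lib.P328.Z

open Finset
open Classical

/-- a nonnegative function on the related pairs of a finite type has a bound that is either
zero or attained -/
theorem exists_max_rel {α : Type} [Fintype α] (Rel : α → α → Prop) (g : α → α → ℝ)
    (hg : ∀ u w, 0 ≤ g u w) :
    ∃ L : ℝ, 0 ≤ L ∧ (∀ u w, Rel u w → g u w ≤ L) ∧ (L = 0 ∨ ∃ u w, Rel u w ∧ g u w = L) := by
  by_cases h : ∃ u w, Rel u w
  · obtain ⟨u0, w0, h0⟩ := h
    have hne : (univ.filter (fun p : α × α => Rel p.1 p.2)).Nonempty :=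
      ⟨(u0, w0), by simp [h0]⟩
    obtain ⟨p, hp, hmax⟩ := Finset.exists_max_image _ (fun p : α × α => g p.1 p.2) hne
    refine ⟨g p.1 p.2, hg _ _, ?_, Or.inr ⟨p.1, p.2, ?_, rfl⟩⟩
    · intro u w huw
      exact hmax (u, w) (by simp [huw])
    · simpa using hp
  · refine ⟨0, le_refl _, ?_, Or.inl rfl⟩
    intro u w huw
    exact absurd ⟨u, w, huw⟩ h

variable {R C : Type} [Fintype R] [DecidableEq R] [Fintype C] [DecidableEq C]
variable {r : R → ℕ} {c : C → ℕ}

theorem avg_finset_sum (W : Finset R) (s : Finset R) (F : R → Tab r c → ℝ) (x : Tab r c) :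
    avg W (fun y => ∑ l ∈ s, F l y) x = ∑ l ∈ s, avg W (F l) x := by
  simp only [avg_apply]
  rw [sum_comm, sum_div]

/-- **Eigenvectors above `K + 1` are constant on classes** (module M3). -/
theorem eigen_const (K : ℝ) (hK0 : 0 ≤ K) (hK : RowTransport K) (W : Finset R) (μ : ℝ)
    (hμ : K + 1 < μ) (v : Tab r c → ℝ) (hv : ∀ x, rowOp W v x = μ * v x) :
    ∀ x y : Tab r c, AgreeOff W x.1 y.1 → v x = v y := by
  intro x0 y0 hx0y0
  have hμpos : 0 < μ := by linarith
  set G : R → Tab r c → ℝ := fun l => avg (W.erase l) v with hG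
  -- Step A
  have hA : ∀ i ∈ W, ∀ x, (μ - 1) * G i x = ∑ l ∈ W.erase i, avg (W.erase i) (G l) x := by
    intro i hi x
    have h1 : avg (W.erase i) (fun y => rowOp W v y) x = avg (W.erase i) (fun y => μ * v y) x := by
      congr 1
      funext y
      exact hv y
    have h2 : avg (W.erase i) (fun y => μ * v y) x = μ * G i x := by
      have : (fun y => μ * v y) = μ • v := by funext y; simp
      rw [this, avg_smul]
      simp [hG]
    have h3 : avg (W.erase i) (fun y => rowOp W v y) x = ∑ l ∈ W, avg (W.erase i) (G l) x := by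
      exact avg_finset_sum (W.erase i) W G x
    have h4 : ∑ l ∈ W, avg (W.erase i) (G l) x
        = avg (W.erase i) (G i) x + ∑ l ∈ W.erase i, avg (W.erase i) (G l) x := by
      rw [← add_sum_erase W _ hi]
    have h5 : avg (W.erase i) (G i) x = G i x := by
      simp only [hG]
      rw [avg_idem]
    rw [h3, h4, h5] at h1
    rw [h2] at h1
    linarith
  -- Step B
  have hB : ∀ l ∈ W, ∀ y ∈ cls W x0, ∀ y' ∈ cls W x0, y.1 l = y'.1 l → G l y = G l y' := by
    intro l hl y hy y' hy' hrow
    apply avg_apply_of_agree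
    intro i hi
    by_cases hil : i = l
    · rw [hil]; exact hrow
    · have hiW : i ∉ W := fun h => hi (mem_erase.mpr ⟨hil, h⟩)
      have h1 := (mem_cls W x0 y).mp hy i hiW
      have h2 := (mem_cls W x0 y').mp hy' i hiW
      rw [← h1, ← h2]
  -- the largest unit change
  obtain ⟨L, hL0, hLmax, hLatt⟩ := exists_max_rel (α := R × Tab r c)
    (fun p q => p.1 = q.1 ∧ p.1 ∈ W ∧ p.2 ∈ cls W x0 ∧ q.2 ∈ cls W x0 ∧
      rowDist (p.2.1 p.1) (q.2.1 p.1) = 1)
    (fun p q => |G p.1 p.2 - G p.1 q.2|) (fun _ _ => abs_nonneg _)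
  have hunit : ∀ l ∈ W, ∀ y ∈ cls W x0, ∀ y' ∈ cls W x0, rowDist (y.1 l) (y'.1 l) = 1 →
      |G l y - G l y'| ≤ L := by
    intro l hl y hy y' hy' hd
    exact hLmax (l, y) (l, y') ⟨rfl, hl, hy, hy', hd⟩
  have hlip : ∀ l ∈ W, ∀ y ∈ cls W x0, ∀ y' ∈ cls W x0,
      |G l y - G l y'| ≤ L * (rowDist (y.1 l) (y'.1 l) : ℝ) := fun l hl =>
    lip_of_unit W x0 l hl (G l) L hL0 (hB l hl) (hunit l hl)
  -- L = 0
  have hLzero : L = 0 := by
    rcases hLatt with h | ⟨⟨i, u⟩, ⟨i', u'⟩, ⟨hii, hi, hu, hu', hd⟩, hval⟩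
    · exact h
    · simp only at hii hi hu hu' hd hval
      subst hii
      have hins : insert i (W.erase i) = W := insert_erase hi
      have huu' : AgreeOff W u.1 u'.1 :=
        ((mem_cls W x0 u).mp hu).symm.trans ((mem_cls W x0 u').mp hu')
      obtain ⟨w, hw0, hwK, hw⟩ := hK R C r c (W.erase i) i u u' (notMem_erase i W)
        (by rw [hins]; exact huu') hd
      have hclsu : cls W u = cls W x0 := cls_eq_of_mem W x0 u hu
      -- row functions
      let g : R → (C → ℕ) → ℝ := fun l z =>
        if h : ∃ y ∈ cls W x0, y.1 l = z then G l (Classical.choose h) else 0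
      have hg : ∀ l ∈ W, ∀ y ∈ cls W x0, g l (y.1 l) = G l y := by
        intro l hl y hy
        have h : ∃ y' ∈ cls W x0, y'.1 l = y.1 l := ⟨y, hy, rfl⟩
        simp only [g, dif_pos h]
        exact hB l hl _ (Classical.choose_spec h).1 y hy (Classical.choose_spec h).2
      have hterm : ∀ l ∈ W.erase i,
          |avg (W.erase i) (G l) u - avg (W.erase i) (G l) u'| ≤ L * w l := by
        intro l hl
        have hlW : l ∈ W := (mem_erase.mp hl).2
        have h1 := hw l hl (g l) L (by
          rw [hins, hclsu]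
          intro y hy y' hy'
          rw [hg l hlW y hy, hg l hlW y' hy']
          exact hlip l hlW y hy y' hy')
        have e1 : ∀ t : Tab r c, t ∈ cls W x0 →
            avg (W.erase i) (fun y => g l (y.1 l)) t = avg (W.erase i) (G l) t := by
          intro t ht
          rw [avg_apply, avg_apply]
          congr 1
          refine sum_congr rfl fun y hy => ?_
          have hy' : y ∈ cls W t := cls_subset_of_subset (erase_subset i W) t hy
          rw [cls_eq_of_mem W x0 t ht] at hy'
          exact hg l hlW y hy'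
        rw [e1 u hu, e1 u' hu'] at h1
        exact h1
      have h2 : (μ - 1) * (G i u - G i u')
          = ∑ l ∈ W.erase i, (avg (W.erase i) (G l) u - avg (W.erase i) (G l) u') := by
        rw [mul_sub, hA i hi u, hA i hi u', sum_sub_distrib]
      have h3 : |(μ - 1) * (G i u - G i u')| ≤ L * K := by
        rw [h2]
        calc |∑ l ∈ W.erase i, (avg (W.erase i) (G l) u - avg (W.erase i) (G l) u')|
            ≤ ∑ l ∈ W.erase i, |avg (W.erase i) (G l) u - avg (W.erase i) (G l) u'| :=
              abs_sum_le_sum_abs _ _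
          _ ≤ ∑ l ∈ W.erase i, L * w l := sum_le_sum hterm
          _ = L * ∑ l ∈ W.erase i, w l := by rw [mul_sum]
          _ ≤ L * K := mul_le_mul_of_nonneg_left hwK hL0
      rw [abs_mul, abs_of_pos (by linarith : (0 : ℝ) < μ - 1), hval] at h3
      nlinarith
  -- conclusion
  have hconst : ∀ l ∈ W, ∀ y ∈ cls W x0, G l y = G l x0 := by
    intro l hl y hy
    have h := hlip l hl y hy x0 (self_mem_cls W x0)
    rw [hLzero, zero_mul] at h
    have := abs_nonpos_iff.mp h
    linarith
  have hy0 : y0 ∈ cls W x0 := (mem_cls W x0 y0).mpr hx0y0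
  have h1 := hv x0
  have h2 := hv y0
  have h3 : rowOp W v y0 = rowOp W v x0 := by
    unfold rowOp
    exact sum_congr rfl fun l hl => hconst l hl y0 hy0
  rw [h3, h1] at h2
  exact mul_left_cancel₀ hμpos.ne' h2

end Vale.Agent.Lib.P328.Z
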