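import Vale.Agent.Lib.P328.Z.Eigen
import Vale.Agent.Lib.P328.Z.Block
import Vale.Agent.Lib.P328.Z.Chain

/-!
# P328, non-sharp route: assembly of the downstream modules

`RowTransport (b - 1)` implies that the chain which resamples `b` uniformly chosen rows is within
total variation `1/4` of the uniform law on the tables after `C(m,b) (m n log (N + 1) + 2)` steps
(`m` rows, `n` columns, `N` the sum of all entries).
-/

namespace Vale.Agent.Lib.P328.Z

open Finset
open Classical

variable {R C : Type} [Fintype R] [DecidableEq R] [Fintype C] [DecidableEq C]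
variable {r : R → ℕ} {c : C → ℕ}

/-- Module M4: the row-sum bound from the row-transport bound. -/
theorem rowsum_le (K : ℝ) (hK0 : 0 ≤ K) (hK : RowTransport K) (W : Finset R)
    (f : Tab r c → ℝ) :
    ∑ i ∈ W, ip f (avg (W.erase i) f)
      ≤ (K + 1) * ip f f + ((W.card : ℝ) - (K + 1)) * ip f (avg W f) :=
  rowsum_le_of_eigen K W (fun μ v hμ hv => eigen_const K hK0 hK W μ hμ v hv) f

/-- Module M5: the block Poincare inequality from the row-transport bound. -/
theorem block_poincare (b : ℕ) (hb : 1 ≤ b) (hK : RowTransport ((b : ℝ) - 1)) (W : Finset R)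
    (hW : b ≤ W.card) (f : Tab r c → ℝ) :
    ip f f - ip f (avg W f) ≤ ∑ B ∈ W.powersetCard b, (ip f f - ip f (avg B f)) := by
  have hb' : (0 : ℝ) ≤ (b : ℝ) - 1 := by
    have : (1 : ℝ) ≤ b := by exact_mod_cast hb
    linarith
  refine block_poincare_of_rowsum b (fun W f => ?_) W hW f
  have h := rowsum_le ((b : ℝ) - 1) hb' hK W f
  have e : (b : ℝ) - 1 + 1 = b := by ring
  rw [e] at h
  exact h

/-- Module M7: mixing of the block chain from the row-transport bound. -/
theorem block_chain_mixing (b : ℕ) (hb : 1 ≤ b) (hK : RowTransport ((b : ℝ) - 1))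
    (r : R → ℕ) (c : C → ℕ) (hR : b ≤ Fintype.card R) (x : Tab r c) (t : ℕ)
    (ht : ((Fintype.card R).choose b : ℝ) *
        ((Fintype.card R : ℝ) * (Fintype.card C : ℝ) * Real.log (((∑ i, r i : ℕ) : ℝ) + 1) + 2)
          ≤ t) :
    (1 / 2) * ∑ y, |(blockMatrix b r c ^ t) x y - 1 / (Fintype.card (Tab r c) : ℝ)| ≤ 1 / 4 :=
  block_chain_mixing_of_poincare b r c hR
    (fun f => block_poincare b hb hK univ (by rw [card_univ]; exact hR) f) x t ht

end Vale.Agent.Lib.P328.Z
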