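import Vale.Agent.Lib.P328.Z.Avg

/-!
# Module M2 (Geo): a geodesic step inside a class is a `2 × 2` switch

If two tables of one `W`-class differ in row `l ∈ W`, a `2 × 2` switch (one unit of row `l` moves
from a column `a` to a column `b`, one unit of another row of `W` moves back) brings row `l` one
unit move closer.  Consequently a function of row `l` that changes by at most `L` along unit moves
is `L`-Lipschitz for `rowDist`.
-/

namespace Vale.Agent.Lib.P328.Z

open Finset
open Classical

variable {R C : Type} [Fintype R] [DecidableEq R] [Fintype C] [DecidableEq C]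
variable {r : R → ℕ} {c : C → ℕ}

/-- Move one unit from position `a` to position `b`. -/
noncomputable def mv {ι : Type} (f : ι → ℕ) (a b : ι) : ι → ℕ :=
  fun j => if j = a then f a - 1 else if j = b then f b + 1 else f j

theorem mv_apply_fst {ι : Type} (f : ι → ℕ) (a b : ι) : mv f a b a = f a - 1 := by
  simp [mv]

theorem mv_apply_snd {ι : Type} (f : ι → ℕ) (a b : ι) (hab : a ≠ b) : mv f a b b = f b + 1 := by
  have : ¬ b = a := fun h => hab h.symm
  simp [mv, this]

theorem mv_apply_other {ι : Type} (f : ι → ℕ) (a b j : ι) (ha : j ≠ a) (hb : j ≠ b) :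
    mv f a b j = f j := by
  simp [mv, ha, hb]

theorem sum_mv {ι : Type} [Fintype ι] (f : ι → ℕ) (a b : ι) (hab : a ≠ b)
    (ha : 1 ≤ f a) : ∑ j, mv f a b j = ∑ j, f j := by
  have h : ∀ j, mv f a b j + (if j = a then 1 else 0) = f j + (if j = b then 1 else 0) := by
    intro j
    by_cases h1 : j = a
    · subst h1
      rw [mv_apply_fst, if_pos rfl, if_neg hab]
      omega
    · by_cases h2 : j = b
      · subst h2
        rw [mv_apply_snd f a j hab, if_neg h1, if_pos rfl]
      · rw [mv_apply_other f a b j h1 h2, if_neg h1, if_neg h2]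
  have h2 : ∑ j, (mv f a b j + (if j = a then 1 else 0))
      = ∑ j, (f j + (if j = b then 1 else 0)) :=
    Finset.sum_congr rfl fun j _ => h j
  rw [Finset.sum_add_distrib, Finset.sum_add_distrib, Finset.sum_ite_eq' univ a,
    Finset.sum_ite_eq' univ b] at h2
  simpa using h2

omit [DecidableEq C] in
/-- Two rows with the same sum and `rowDist = 0` are equal. -/
theorem eq_of_rowDist_eq_zero (z z' : C → ℕ) (hs : ∑ j, z j = ∑ j, z' j)
    (h : rowDist z z' = 0) : z = z' := by
  unfold rowDist at h
  have hle : ∀ j ∈ (univ : Finset C), z j ≤ z' j := by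
    intro j hj
    have := (Finset.sum_eq_zero_iff.mp h) j hj
    omega
  have := (Finset.sum_eq_sum_iff_of_le hle).mp hs
  funext j
  exact this j (mem_univ j)

omit [DecidableEq C] in
/-- Two different rows with the same sum: some column where the first is larger. -/
theorem exists_gt_of_ne (z z' : C → ℕ) (hs : ∑ j, z j = ∑ j, z' j) (hne : z ≠ z') :
    ∃ a, z' a < z a := by
  by_contra hcon
  push Not at hcon
  have := (Finset.sum_eq_sum_iff_of_le (fun j _ => hcon j)).mp hs
  exact hne (funext fun j => this j (mem_univ j))

/-- The `2 × 2` switch: row `l` moves a unit from `a` to `b`, row `l2` moves a unit from `b`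
to `a`. -/
noncomputable def switchTab (y : R → C → ℕ) (l l2 : R) (a b : C) : R → C → ℕ :=
  fun i => if i = l then mv (y l) a b else if i = l2 then mv (y l2) b a else y i

theorem switchTab_isTable (y : R → C → ℕ) (hy : IsTable r c y) (l l2 : R) (a b : C)
    (hl : l ≠ l2) (hab : a ≠ b) (h1 : 1 ≤ y l a) (h2 : 1 ≤ y l2 b) :
    IsTable r c (switchTab y l l2 a b) := by
  have hl' : ¬ l2 = l := fun h => hl h.symm
  have hba : b ≠ a := fun h => hab h.symm
  constructor
  · intro i
    by_cases hi : i = l
    · subst hi
      simp only [switchTab, if_true]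
      rw [sum_mv (y i) a b hab h1]
      exact hy.1 i
    · by_cases hi2 : i = l2
      · subst hi2
        simp only [switchTab, if_neg hi, if_true]
        rw [sum_mv (y i) b a hba h2]
        exact hy.1 i
      · simp only [switchTab, if_neg hi, if_neg hi2]
        exact hy.1 i
  · intro j
    rw [← hy.2 j]
    by_cases hj : j = a
    · subst hj
      have : ∀ i, switchTab y l l2 j b i j = mv (fun i => y i j) l l2 i := by
        intro i
        by_cases hi : i = l
        · subst hi
          simp only [switchTab, if_true]
          rw [mv_apply_fst, mv_apply_fst]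
        · by_cases hi2 : i = l2
          · subst hi2
            simp only [switchTab, if_neg hi, if_true]
            rw [mv_apply_snd (y i) b j hba, mv_apply_snd (fun i => y i j) l i hl]
          · simp only [switchTab, if_neg hi, if_neg hi2]
            rw [mv_apply_other (fun i => y i j) l l2 i hi hi2]
      rw [Finset.sum_congr rfl fun i _ => this i]
      exact sum_mv (fun i => y i j) l l2 hl h1
    · by_cases hjb : j = b
      · subst hjb
        have : ∀ i, switchTab y l l2 a j i j = mv (fun i => y i j) l2 l i := by
          intro i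
          by_cases hi : i = l
          · subst hi
            simp only [switchTab, if_true]
            rw [mv_apply_snd (y i) a j hab, mv_apply_snd (fun i => y i j) l2 i hl']
          · by_cases hi2 : i = l2
            · subst hi2
              simp only [switchTab, if_neg hi, if_true]
              rw [mv_apply_fst, mv_apply_fst]
            · simp only [switchTab, if_neg hi, if_neg hi2]
              rw [mv_apply_other (fun i => y i j) l2 l i hi2 hi]
        rw [Finset.sum_congr rfl fun i _ => this i]
        exact sum_mv (fun i => y i j) l2 l hl' h2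
      · refine Finset.sum_congr rfl fun i _ => ?_
        by_cases hi : i = l
        · subst hi
          simp only [switchTab, if_true]
          rw [mv_apply_other (y i) a b j hj hjb]
        · by_cases hi2 : i = l2
          · subst hi2
            simp only [switchTab, if_neg hi, if_true]
            rw [mv_apply_other (y i) b a j hjb hj]
          · simp only [switchTab, if_neg hi, if_neg hi2]

omit [Fintype R] [Fintype C] [DecidableEq C] in
theorem switchTab_row (y : R → C → ℕ) (l l2 : R) (a b : C) :
    switchTab y l l2 a b l = mv (y l) a b := by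
  simp [switchTab]

omit [Fintype R] [Fintype C] [DecidableEq C] in
theorem switchTab_other (y : R → C → ℕ) (l l2 : R) (a b : C) (i : R) (h1 : i ≠ l)
    (h2 : i ≠ l2) : switchTab y l l2 a b i = y i := by
  simp [switchTab, h1, h2]

/-- If the rows `l` of two tables `y`, `y'` of one `W`-class differ (`l ∈ W`), some table `y''`
of the class has row `l` one unit move away from that of `y` and one unit closer to that of `y'`. -/
theorem geo_step (W : Finset R) (x : Tab r c) (l : R) (hl : l ∈ W) (y y' : Tab r c)
    (hy : y ∈ cls W x) (hy' : y' ∈ cls W x) (hne : y.1 l ≠ y'.1 l) :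
    ∃ y'' ∈ cls W x, rowDist (y.1 l) (y''.1 l) = 1 ∧
      rowDist (y''.1 l) (y'.1 l) + 1 = rowDist (y.1 l) (y'.1 l) := by
  have hxy : AgreeOff W x.1 y.1 := (mem_cls W x y).mp hy
  have hxy' : AgreeOff W x.1 y'.1 := (mem_cls W x y').mp hy'
  have hsum : ∑ j, y.1 l j = ∑ j, y'.1 l j := by rw [y.2.1 l, y'.2.1 l]
  obtain ⟨a, ha⟩ := exists_gt_of_ne (y.1 l) (y'.1 l) hsum hne
  obtain ⟨b, hb⟩ := exists_gt_of_ne (y'.1 l) (y.1 l) hsum.symm (fun h => hne h.symm)
  have hab : a ≠ b := by
    rintro rfl
    omega
  -- a row `l2 ≠ l` with more units in column `b` than `y'`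
  have hl2 : ∃ l2, l2 ≠ l ∧ y'.1 l2 b < y.1 l2 b := by
    by_contra hcon
    push Not at hcon
    have hcol : ∑ i, y.1 i b = ∑ i, y'.1 i b := by rw [y.2.2 b, y'.2.2 b]
    have hle : ∀ i ∈ (univ : Finset R), y.1 i b ≤ y'.1 i b := by
      intro i _
      by_cases hi : i = l
      · subst hi
        exact hb.le
      · exact hcon i hi
    have := (Finset.sum_eq_sum_iff_of_le hle).mp hcol l (mem_univ l)
    omega
  obtain ⟨l2, hl2ne, hl2b⟩ := hl2
  have hl2W : l2 ∈ W := by
    by_contra hnot
    have e1 := hxy l2 hnot
    have e2 := hxy' l2 hnot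
    rw [← e1, ← e2] at hl2b
    exact lt_irrefl _ hl2b
  have h1 : 1 ≤ y.1 l a := by omega
  have h2 : 1 ≤ y.1 l2 b := by omega
  have hll2 : l ≠ l2 := fun h => hl2ne h.symm
  refine ⟨⟨switchTab y.1 l l2 a b, switchTab_isTable y.1 y.2 l l2 a b hll2 hab h1 h2⟩, ?_, ?_, ?_⟩
  · rw [mem_cls]
    intro i hi
    have hil : i ≠ l := fun h => hi (h ▸ hl)
    have hil2 : i ≠ l2 := fun h => hi (h ▸ hl2W)
    show x.1 i = switchTab y.1 l l2 a b i
    rw [switchTab_other y.1 l l2 a b i hil hil2]
    exact hxy i hi
  · show rowDist (y.1 l) (switchTab y.1 l l2 a b l) = 1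
    rw [switchTab_row]
    unfold rowDist
    have : ∀ j, y.1 l j - mv (y.1 l) a b j = if j = a then 1 else 0 := by
      intro j
      by_cases hj : j = a
      · subst hj
        rw [mv_apply_fst, if_pos rfl]
        omega
      · by_cases hjb : j = b
        · subst hjb
          rw [mv_apply_snd (y.1 l) a j hab, if_neg hj]
          omega
        · rw [mv_apply_other (y.1 l) a b j hj hjb, if_neg hj]
          omega
    rw [Finset.sum_congr rfl fun j _ => this j, Finset.sum_ite_eq' univ a]
    simp
  · show rowDist (switchTab y.1 l l2 a b l) (y'.1 l) + 1 = rowDist (y.1 l) (y'.1 l)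
    rw [switchTab_row]
    unfold rowDist
    have : ∀ j, mv (y.1 l) a b j - y'.1 l j + (if j = a then 1 else 0)
        = y.1 l j - y'.1 l j := by
      intro j
      by_cases hj : j = a
      · subst hj
        rw [mv_apply_fst, if_pos rfl]
        omega
      · by_cases hjb : j = b
        · subst hjb
          rw [mv_apply_snd (y.1 l) a j hab, if_neg hj]
          omega
        · rw [mv_apply_other (y.1 l) a b j hj hjb, if_neg hj]
          omega
    rw [← Finset.sum_congr rfl fun j _ => this j, Finset.sum_add_distrib,
      Finset.sum_ite_eq' univ a]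
    simp

/-- A function on a class that depends on row `l` only and changes by at most `L` along unit
moves of row `l` is `L`-Lipschitz for `rowDist`. -/
theorem lip_of_unit (W : Finset R) (x : Tab r c) (l : R) (hl : l ∈ W) (G : Tab r c → ℝ) (L : ℝ)
    (hL : 0 ≤ L)
    (hG : ∀ y ∈ cls W x, ∀ y' ∈ cls W x, y.1 l = y'.1 l → G y = G y')
    (hunit : ∀ y ∈ cls W x, ∀ y' ∈ cls W x, rowDist (y.1 l) (y'.1 l) = 1 → |G y - G y'| ≤ L) :
    ∀ y ∈ cls W x, ∀ y' ∈ cls W x, |G y - G y'| ≤ L * (rowDist (y.1 l) (y'.1 l) : ℝ) := by
  have hL' : 0 ≤ L := hL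
  have key : ∀ d : ℕ, ∀ y ∈ cls W x, ∀ y' ∈ cls W x, rowDist (y.1 l) (y'.1 l) = d →
      |G y - G y'| ≤ L * (d : ℝ) := by
    intro d
    induction d with
    | zero =>
      intro y hy y' hy' hd
      have hsum : ∑ j, y.1 l j = ∑ j, y'.1 l j := by rw [y.2.1 l, y'.2.1 l]
      have heq := eq_of_rowDist_eq_zero (y.1 l) (y'.1 l) hsum hd
      rw [hG y hy y' hy' heq]
      simp
    | succ d ih =>
      intro y hy y' hy' hd
      have hne : y.1 l ≠ y'.1 l := by
        intro h
        rw [h] at hd
        simp [rowDist] at hd
      obtain ⟨y'', hy'', h1, h2⟩ := geo_step W x l hl y y' hy hy' hne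
      have hd'' : rowDist (y''.1 l) (y'.1 l) = d := by omega
      have e1 := hunit y hy y'' hy'' h1
      have e2 := ih y'' hy'' y' hy' hd''
      have tri : |G y - G y'| ≤ |G y - G y''| + |G y'' - G y'| := by
        have : G y - G y' = (G y - G y'') + (G y'' - G y') := by ring
        rw [this]
        exact abs_add_le _ _
      push_cast
      nlinarith [hL']
  intro y hy y' hy'
  exact key _ y hy y' hy' rfl

end Vale.Agent.Lib.P328.Z
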