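import Vale.Agent.Lib.P328.Z.Final

/-!
# P328, non-sharp route: the spectral interface

The block recursion only uses a spectral bound on the sum of the one-row conditional
expectations.  This file states that bound in two equivalent-in-strength forms
(`RowSpectral`, operator form; `RowVariance`, variance form), shows that each of
`RowTransport K` and `RowVariance b` implies `RowSpectral`, and derives the mixing bound of the
block chain from `RowSpectral b`.
-/

namespace Vale.Agent.Lib.P328.Z

open Finset
open Classical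

/-- **Row spectral bound with constant `b`** (operator form): on every class of tables and for
every set `W` of rows, the sum over `i ∈ W` of the conditional expectations given row `i` and the
rows outside `W` is at most `b + (|W| - b) P`, `P` the conditional expectation given the rows
outside `W`. -/
def RowSpectral (b : ℝ) : Prop :=
  ∀ (R C : Type) [Fintype R] [DecidableEq R] [Fintype C] [DecidableEq C]
    (r : R → ℕ) (c : C → ℕ) (W : Finset R) (f : Tab r c → ℝ),
    ∑ i ∈ W, ip f (avg (W.erase i) f) ≤ b * ip f f + ((W.card : ℝ) - b) * ip f (avg W f)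

/-- **Row variance bound with constant `b`** (variance form): if `g i` (`i ∈ W`) depends only on
row `i` and on the rows outside `W`, and has mean zero on every class of `W`, then the square
norm of `∑ g i` is at most `b` times the sum of the square norms of the `g i`. -/
def RowVariance (b : ℝ) : Prop :=
  ∀ (R C : Type) [Fintype R] [DecidableEq R] [Fintype C] [DecidableEq C]
    (r : R → ℕ) (c : C → ℕ) (W : Finset R) (g : R → Tab r c → ℝ),
    (∀ i ∈ W, avg (W.erase i) (g i) = g i) → (∀ i ∈ W, avg W (g i) = 0) →
    ip (fun x => ∑ i ∈ W, g i x) (fun x => ∑ i ∈ W, g i x) ≤ b * ∑ i ∈ W, ip (g i) (g i)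

/-- The row-transport bound with constant `K` gives the spectral bound with constant `K + 1`. -/
theorem rowSpectral_of_rowTransport (K : ℝ) (hK0 : 0 ≤ K) (hK : RowTransport K) :
    RowSpectral (K + 1) := by
  intro R C _ _ _ _ r c W f
  exact rowsum_le K hK0 hK W f

section

variable {R C : Type} [Fintype R] [DecidableEq R] [Fintype C] [DecidableEq C]
variable {r : R → ℕ} {c : C → ℕ}

theorem ip_comm' {α : Type} [Fintype α] (f g : α → ℝ) : ip f g = ip g f := by
  unfold ip
  exact sum_congr rfl fun x _ => mul_comm _ _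

theorem ip_sub_sub {α : Type} [Fintype α] (f g : α → ℝ) :
    ip (f - g) (f - g) = ip f f - 2 * ip f g + ip g g := by
  unfold ip
  rw [mul_sum, ← sum_sub_distrib, ← sum_add_distrib]
  refine sum_congr rfl fun x _ => ?_
  simp only [Pi.sub_apply]
  ring

theorem ip_sum_right {α : Type} [Fintype α] {ι : Type} (s : Finset ι) (f : α → ℝ)
    (g : ι → α → ℝ) : ip f (fun x => ∑ i ∈ s, g i x) = ∑ i ∈ s, ip f (g i) := by
  unfold ip
  rw [sum_comm]
  refine sum_congr rfl fun x _ => ?_
  rw [mul_sum]

theorem ip_cauchy {α : Type} [Fintype α] (f g : α → ℝ) : ip f g ^ 2 ≤ ip f f * ip g g := by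
  unfold ip
  have h := Finset.sum_mul_sq_le_sq_mul_sq (univ : Finset α) f g
  have e1 : ∑ x, f x * f x = ∑ x, f x ^ 2 := sum_congr rfl fun x _ => (sq (f x)).symm
  have e2 : ∑ x, g x * g x = ∑ x, g x ^ 2 := sum_congr rfl fun x _ => (sq (g x)).symm
  rw [e1, e2]
  exact h

theorem ip_self_nonneg {α : Type} [Fintype α] (f : α → ℝ) : 0 ≤ ip f f := by
  unfold ip
  exact sum_nonneg fun x _ => mul_self_nonneg _

/-- The variance form implies the operator form, with the same constant. -/
theorem rowsum_le_of_variance (b : ℝ) (hb : 0 ≤ b) (hV : RowVariance b) (W : Finset R)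
    (f : Tab r c → ℝ) :
    ∑ i ∈ W, ip f (avg (W.erase i) f) ≤ b * ip f f + ((W.card : ℝ) - b) * ip f (avg W f) := by
  set a : ℝ := ip f (avg W f) with ha
  set f0 : Tab r c → ℝ := f - avg W f with hf0
  -- the components
  set g : R → Tab r c → ℝ := fun i => avg (W.erase i) f0 with hg
  have hgi : ∀ i ∈ W, g i = avg (W.erase i) f - avg W f := by
    intro i _
    simp only [hg, hf0]
    rw [avg_sub, (avg_tower (W.erase i) W (erase_subset i W) f).2]
  have h1 : ∀ i ∈ W, avg (W.erase i) (g i) = g i := fun i _ => avg_idem (W.erase i) f0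
  have hf0avg : avg W f0 = 0 := by
    simp only [hf0]
    rw [avg_sub, avg_idem, sub_self]
  have h2 : ∀ i ∈ W, avg W (g i) = 0 := by
    intro i _
    simp only [hg]
    rw [(avg_tower (W.erase i) W (erase_subset i W) f0).1, hf0avg]
  set S : ℝ := ∑ i ∈ W, ip (g i) (g i) with hS
  have hS0 : 0 ≤ S := sum_nonneg fun i _ => ip_self_nonneg (g i)
  have hV' := hV R C r c W g h1 h2
  set G : Tab r c → ℝ := fun x => ∑ i ∈ W, g i x with hG
  -- `ip f0 G = S`
  have h3 : ip f0 G = S := by
    rw [hG, ip_sum_right]
    exact sum_congr rfl fun i _ => ip_avg_self (W.erase i) f0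
  have h4 : ip f0 G ^ 2 ≤ ip f0 f0 * ip G G := ip_cauchy f0 G
  have h5 : ip f0 f0 = ip f f - a := by
    simp only [hf0]
    rw [ip_sub_sub, ← ip_avg_self W f]
    ring
  have h50 : 0 ≤ ip f0 f0 := ip_self_nonneg f0
  -- `S ≤ b * ip f0 f0`
  have h6 : S ≤ b * ip f0 f0 := by
    rw [h3] at h4
    have h7 : S ^ 2 ≤ ip f0 f0 * (b * S) :=
      h4.trans (mul_le_mul_of_nonneg_left hV' h50)
    by_contra hcon
    rw [not_le] at hcon
    have hSpos : 0 < S := lt_of_le_of_lt (mul_nonneg hb h50) hcon
    have h8 : S * S ≤ (b * ip f0 f0) * S := by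
      have : S ^ 2 = S * S := sq S
      rw [this] at h7
      linarith [h7, mul_comm (ip f0 f0) (b * S), mul_assoc b (ip f0 f0) S, mul_assoc b S (ip f0 f0),
        mul_comm S (ip f0 f0)]
    have h9 : S ≤ b * ip f0 f0 := le_of_mul_le_mul_right h8 hSpos
    linarith
  -- each term
  have h10 : ∀ i ∈ W, ip f (avg (W.erase i) f) = ip (g i) (g i) + a := by
    intro i hi
    rw [hgi i hi, ip_sub_sub, ← ip_avg_self (W.erase i) f, ← ip_avg_self W f]
    have e : ip (avg (W.erase i) f) (avg W f) = a := by
      rw [avg_symm, (avg_tower (W.erase i) W (erase_subset i W) f).2]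
    rw [e]
    ring
  rw [sum_congr rfl h10, sum_add_distrib, sum_const, nsmul_eq_mul]
  rw [h5] at h6
  have : ∑ i ∈ W, ip (g i) (g i) = S := rfl
  rw [this]
  nlinarith [h6]

end

/-- The variance form implies the operator form, with the same constant. -/
theorem rowSpectral_of_rowVariance (b : ℝ) (hb : 0 ≤ b) (hV : RowVariance b) : RowSpectral b := by
  intro R C _ _ _ _ r c W f
  exact rowsum_le_of_variance b hb hV W f

/-- **Mixing of the block chain from the spectral bound.**  If `RowSpectral b` holds for a natural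
number `b`, then the chain that resamples `b` uniformly chosen rows is within total variation
`1/4` of the uniform law after `C(m,b) (m n log (N + 1) + 2)` steps. -/
theorem block_chain_mixing_of_spectral (b : ℕ) (hS : RowSpectral (b : ℝ))
    {R C : Type} [Fintype R] [DecidableEq R] [Fintype C] [DecidableEq C]
    (r : R → ℕ) (c : C → ℕ) (hR : b ≤ Fintype.card R) (x : Tab r c) (t : ℕ)
    (ht : ((Fintype.card R).choose b : ℝ) *
        ((Fintype.card R : ℝ) * (Fintype.card C : ℝ) * Real.log (((∑ i, r i : ℕ) : ℝ) + 1) + 2)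
          ≤ t) :
    (1 / 2) * ∑ y, |(blockMatrix b r c ^ t) x y - 1 / (Fintype.card (Tab r c) : ℝ)| ≤ 1 / 4 :=
  block_chain_mixing_of_poincare b r c hR
    (fun f => block_poincare_of_rowsum b (fun W f => hS R C r c W f) univ
      (by rw [card_univ]; exact hR) f) x t ht

end Vale.Agent.Lib.P328.Z
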